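import Vale.Agent.P183.Main

namespace Vale.Agent.Results.P183.Inflation

open Vale.Agent.P183

universe u v

theorem result :
    (∀ (L : Type u) [Lattice L] [Finite L] (I : Type) [Finite I] (K : I → Type v)
      [∀ k, PartialOrder (K k)] [∀ k, BoundedOrder (K k)] (a b : I → L),
      Representable L → (∀ k, Representable (K k)) →
      (∀ k, ∃ s : Finset L, (∀ i ∈ s, SupPrime i) ∧ IsLUB (s : Set L) (a k)) →
      (∀ k, ∃ s : Finset L, (∀ i ∈ s, InfPrime i) ∧ IsGLB (s : Set L) (b k)) →
      Representable (Infl L K a b)) ∧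
    ∀ (D : Type) [DistribLattice D] [Finite D] [Nonempty D] (K : D → Type)
      [∀ d, PartialOrder (K d)] [∀ d, BoundedOrder (K d)],
      (∀ d, Representable (K d)) → Representable (Σₗ d, K d) :=
  ⟨fun L _ _ I _ K _ _ a b hL hK ha hb => representable_infl L I K a b hL hK ha hb,
    fun D _ _ _ K _ _ hK => representable_lex D K hK⟩

end Vale.Agent.Results.P183.Inflation
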