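import Vale.Agent.P183.Asm

/-!
# P183: congruence lattices of finite algebras and inflation of arbitrary intervals
-/

namespace Vale.Agent.Results.P183.IntervalDoubling

open Vale.Agent.P183

universe v

/-- Every lattice of the class `Dbl` (in particular every finite bounded lattice) is isomorphic to the
congruence lattice of a finite algebra, and an arbitrary interval of it may be inflated by an arbitrary
representable lattice. -/
theorem result :
    (∀ (L : Type) [i : PartialOrder L], Dbl L i → Representable L) ∧
    ∀ (L : Type) [i : PartialOrder L] [BoundedOrder L] (K : Type v) [PartialOrder K]
      [BoundedOrder K] (a b : L), Dbl L i → Representable K → Representable (Inflate L K a b) :=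
  ⟨fun _ _ h => (srep_dbl h).rep, fun _ _ _ _ _ _ a b hL hK => infl1_rep (srep_dbl hL) hK a b⟩

end Vale.Agent.Results.P183.IntervalDoubling
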